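import Vale.Agent.Lib.P154Anti.Cert.D6.Table2
import Vale.Agent.Lib.P154Anti.Cert.D6.Masses

namespace Vale.Agent.Lib.P154Anti.Cert.D6

open Vale.Agent.Lib.P154Anti

theorem L70 : lvlOK3 cfg par tblI2 tblE2 vE vc Q70 17590971947637 Q71 = true := by decide +kernel

theorem L71 : lvlOK3 cfg par tblI2 tblE2 vE vc Q71 17590942149983 Q72 = true := by decide +kernel

theorem L72 : lvlOK3 cfg par tblI2 tblE2 vE vc Q72 17590898111643 Q73 = true := by decide +kernel

theorem L73 : lvlOK3 cfg par tblI2 tblE2 vE vc Q73 17591113539558 Q74 = true := by decide +kernel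

theorem L74 : lvlOK3 cfg par tblI2 tblE2 vE vc Q74 17590940008125 Q75 = true := by decide +kernel

end Vale.Agent.Lib.P154Anti.Cert.D6
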